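import Vale.Agent.P088.H198.K.Defs
import Vale.Agent.P088.R2.H794.B.Spec3
import Vale.Agent.P088.R2.H551.V.Spec

/-!
# P088, two arbitrary pairs (metric, connection) on a smooth domain, no condition at the boundary

Rows are literal statements; the owner of a row proves it in an own file. They are the rows of
`H198/K/Defs` (base `(σ · 1, A₁)`) with a general base tensor `s`, and the rows `B_*` of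
`H794/B/Spec*` (metrics only) with connections.
-/

open MeasureTheory Set Filter Topology
open scoped ContDiff Matrix

noncomputable section

namespace Vale.Agent.P088.PJ.Bd

open Vale.Agent.P088.LR Vale.Agent.P088.LR.B Vale.Agent.P088.LR.U Vale.Agent.P088.LR.H158
open Vale.Agent.P088.LR.CF (bal)
open Vale.Agent.P088.LR.K (Dat Sma gA)
open Vale.Agent.P088.HY.Bd (IsoOn NrC CoG scR MetB Osc)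

variable {n N : ℕ}

/-- The data of the pairs agree (`Dat`), and the Dirichlet problem is solvable for the first one. -/
def DatG (Ω : Set (V n)) (s₁ : MF n) (A₁ : Cn n N) (s₂ : MF n) (A₂ : Cn n N) : Prop :=
  Dat Ω s₁ A₁ s₂ A₂ ∧ ∀ f : V n → Fin N → ℂ, ContDiff ℝ ∞ f → ∃ u : V n → Fin N → ℂ,
    ContDiff ℝ ∞ u ∧ (∀ x ∈ frontier Ω, u x = f x) ∧ ∀ x ∈ Ω, lav s₁ A₁ u x = 0

/-- `ζ = i τ + β ∇ρ(p)`. -/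
def zt (ρ : V n → ℝ) (p τ : V n) (β : ℂ) (i : Fin n) : ℂ := Complex.I * τ i + β * (pd i ρ p : ℝ)

/-! ## The boundary -/

/-- (DAT) equal Dirichlet-to-Neumann forms give `DatG` (model: `H129.KDat`). -/
def RowDAT : Prop := ∀ {n N : ℕ} (Ω : Set (V n)), IsOpen Ω → Bornology.IsBounded Ω →
  ∀ g₁ g₂ : MF n, SmM g₁ → SmM g₂ → (∀ x, (g₁ x).PosDef) → (∀ x, (g₂ x).PosDef) →
  ∀ A₁ A₂ : Cn n N, SmU A₁ → SmU A₂ → SDU Ω g₁ A₁ g₂ A₂ → DatG Ω (sg g₁) A₁ (sg g₂) A₂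

/-- (EN) the energy estimate for quasimodes `u`, general base (models: `H589.KEnA`, `R2.H420.BEN`).
With `u₀` the solution for `(s, A₁)`, `v` for `(t, A)`, both `= u` on `∂Ω`:
`ea t A u u - ea s A₁ u u = ea t A (u - v) (u - v) - ea s A₁ (u - u₀) (u - u₀)`. -/
def RowEN : Prop := ∀ {n : ℕ} (N : ℕ) (ρ : V n → ℝ), 3 ≤ n → Dom ρ → ∃ a₀ C : ℝ, 0 < a₀ ∧ 0 < C ∧
  ∀ (s t : MF n) (A₁ A : Cn n N), SmM s → SmM t → (∀ x, (s x).IsSymm) → (∀ x, (t x).IsSymm) →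
  SmU A₁ → SmU A → (∀ x ∈ Om ρ, ∀ i j, |s x i j - dl i j| ≤ a₀) →
  (∀ x ∈ Om ρ, ∀ i j, |t x i j - dl i j| ≤ a₀) → (∀ x ∈ Om ρ, ∀ i α β, ‖A₁ i x α β‖ ≤ a₀) →
  (∀ x ∈ Om ρ, ∀ i α β, ‖A i x α β‖ ≤ a₀) → DatG (Om ρ) s A₁ t A →
  ∀ u : V n → Fin N → ℂ, ContDiff ℝ ∞ u →
  ‖ea (Om ρ) t A u u - ea (Om ρ) s A₁ u u‖ ≤ C * ((∫ x in Om ρ,
    ((∑ i, ∑ j, |t x i j - s x i j| ^ 2) * ∑ j, ∑ l, ‖cd A₁ j u x l‖ ^ 2 +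
      (∑ i, ∑ α, ∑ β, ‖A i x α β - A₁ i x α β‖ ^ 2) *
        ((∑ l, ‖u x l‖ ^ 2) + ρ x ^ 2 * ∑ j, ∑ l, ‖cd A₁ j u x l‖ ^ 2))) +
    ∫ x in Om ρ, ∑ l, ‖lav s A₁ u x l‖ ^ 2)

/-- (QU) quasimodes of a general pair concentrating at a boundary point (model: `R2/H311`,
`R2/H381`, scalar). `τ` is a unit covector with `τ · ∇ρ(p) = 0`. -/
def RowQU : Prop := ∀ {n : ℕ} (N : ℕ) (ρ : V n → ℝ), Dom ρ → ∀ (s : MF n) (A₁ : Cn n N), SmM s →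
  (∀ x, (s x).PosDef) → SmU A₁ → ∀ p, ρ p = 0 → ∀ τ : V n, ∑ i, τ i ^ 2 = 1 →
  ∑ i, τ i * pd i ρ p = 0 → ∃ β : ℂ, β.re < 0 ∧
  ∑ i, ∑ j, (s p i j : ℂ) * (zt ρ p τ β i * zt ρ p τ β j) = 0 ∧
  ∀ (η : Fin N → ℂ) (j : ℕ), ∃ (U : ℕ → V n → Fin N → ℂ) (Z : ℕ → ℝ), (∀ M, ContDiff ℝ ∞ (U M)) ∧
    (∀ M, 0 < Z M) ∧
    Tendsto (fun M => (Z M)⁻¹ * ∫ x in Om ρ, ∑ l, ‖lav s A₁ (U M) x l‖ ^ 2) atTop (𝓝 0) ∧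
    ∀ F : V n → ℂ, ContinuousOn F (closure (Om ρ)) → ∀ l l' : Fin N,
      (∀ a b, Tendsto (fun M => ((Z M : ℝ) : ℂ)⁻¹ * ∫ x in Om ρ, ((ρ x ^ j : ℝ) : ℂ) * F x *
        (pd a (U M) x l * star (pd b (U M) x l'))) atTop
        (𝓝 (F p * (zt ρ p τ β a * star (zt ρ p τ β b)) * (η l * star (η l'))))) ∧
      (∀ a b, Tendsto (fun M => ((Z M : ℝ) : ℂ)⁻¹ * ∫ x in Om ρ, ((ρ x ^ j : ℝ) : ℂ) * F x *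
        (pd a (fun y => pd b (U M) y) x l * star (U M x l'))) atTop
        (𝓝 (F p * (zt ρ p τ β a * zt ρ p τ β b) * (η l * star (η l'))))) ∧
      (∀ a, Tendsto (fun M => ((Z M : ℝ) : ℂ)⁻¹ * ∫ x in Om ρ, ((ρ x ^ j : ℝ) : ℂ) * F x *
        (pd a (U M) x l * star (U M x l'))) atTop (𝓝 0)) ∧
      Tendsto (fun M => ((Z M : ℝ) : ℂ)⁻¹ * ∫ x in Om ρ, ((ρ x ^ j : ℝ) : ℂ) * F x *
        (U M x l * star (U M x l'))) atTop (𝓝 0)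

/-- (BD) the boundary step, general base; from QU, EN (models: `H607/K/BdF`, `R2/H281/BBd`). -/
def RowBD : Prop := ∀ {n : ℕ} (N : ℕ) (ρ : V n → ℝ), 3 ≤ n → 1 ≤ N → Dom ρ →
  ∃ (k : ℕ) (ε : ℝ), 0 < ε ∧
  ∀ (s t : MF n) (A₁ A : Cn n N), SmM s → SmM t → (∀ x, (s x).PosDef) → (∀ x, (t x).IsSymm) →
  SmU A₁ → SmU A → Sma k ε s t A₁ A → DatG (Om ρ) s A₁ t A →
  ∀ (m : ℕ) (b : Fin n → Fin n → V n → ℝ) (a : Fin n → MC n N), (∀ i j, ContDiff ℝ ∞ (b i j)) →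
  (∀ i, SmC (a i)) → (∀ i j x, b i j x = b j i x) →
  (∀ i j x, t x i j - s x i j = ρ x ^ m * b i j x) →
  (∀ i x, ((ρ x : ℝ) : ℂ) • (A i x - A₁ i x) = ((ρ x ^ m : ℝ) : ℂ) • a i x) →
  (∀ x, ρ x = 0 → ∀ i, ∑ j, b i j x * pd j ρ x = 0) →
  (∀ x, ρ x = 0 → ∑ i, ((pd i ρ x : ℝ) : ℂ) • a i x = 0) →
  ∀ x, ρ x = 0 → (∀ i j, b i j x = 0) ∧ ∀ i, a i x = 0

/-- (INF) contact of infinite order, general base; from HAD, BD, TOPO (models: `H397/KInf`,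
`R2/H808/BInf`). -/
def RowINF : Prop := ∀ {n : ℕ} (N : ℕ) (ρ : V n → ℝ), 3 ≤ n → 1 ≤ N → Dom ρ →
  ∃ (k : ℕ) (ε : ℝ), 0 < ε ∧ ∀ (s t : MF n) (A₁ A : Cn n N), SmM s → SmM t →
  (∀ x, (s x).PosDef) → (∀ x, (t x).IsSymm) → SmU A₁ → SmU A → Sma k ε s t A₁ A →
  DatG (Om ρ) s A₁ t A →
  ∀ w₁ : V n → V n, ContDiff ℝ ∞ w₁ → (∀ x, ρ x = 0 → (jm w₁ x).det ≠ 0) →
  (∀ a x, ρ x = 0 → gr t (fun y => y a + w₁ y a) ρ x = gr s (fun y => y a + w₁ y a) ρ x) →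
  (∀ a (m : ℕ), ∃ r > 0, ∃ E : V n → ℝ, ContDiff ℝ ∞ E ∧ ∀ x, |ρ x| < r →
    dr t (fun y => y a + w₁ y a) x = ρ x ^ m * E x) →
  (∀ a (m : ℕ), ∃ r > 0, ∃ E : V n → ℝ, ContDiff ℝ ∞ E ∧ ∀ x, |ρ x| < r →
    dr s (fun y => y a + w₁ y a) x = ρ x ^ m * E x) →
  (∀ m : ℕ, ∃ r > 0, ∃ E : MC n N, SmC E ∧ ∀ x, |ρ x| < r →
    ∑ i, ((pd i ρ x : ℝ) : ℂ) • (A i x - A₁ i x) = ((ρ x ^ m : ℝ) : ℂ) • E x) →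
  ∀ m : ℕ,
  (∃ b : Fin n → Fin n → V n → ℝ, (∀ i j, ContDiff ℝ ∞ (b i j)) ∧
    ∀ x i j, t x i j - s x i j = ρ x ^ m * b i j x) ∧
  ∃ a : Fin n → MC n N, (∀ i, SmC (a i)) ∧
    ∀ i x, A i x - A₁ i x = ((ρ x ^ m : ℝ) : ℂ) • a i x

/-- (FIN) two pairs near `(1, 0)` on a smooth domain in the small ball, tensor form; from TOPO,
BOREL, BX.MAP, EXT, the rows EXC, MP, TG, GA, GS of `H198/K`, U.SMK, INF and `RowRG` (models: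
`H738/KFin`, `R2/H787/BFin`). -/
def RowFIN : Prop := ∀ (n N : ℕ), 3 ≤ n → 1 ≤ N → ∀ ρ : V n → ℝ, Dom ρ →
  (∀ x ∉ bls n, ρ x = -1) → ∃ (k : ℕ) (ε : ℝ), 0 < ε ∧ ∀ s₁ s₂ : MF n, SmM s₁ → SmM s₂ →
  (∀ x, (s₁ x).PosDef) → (∀ x, (s₂ x).PosDef) → (∀ x ∉ bal n, s₁ x = 1) →
  ∀ A₁ A₂ : Cn n N, SmU A₁ → SmU A₂ → (∀ i, ∀ x ∉ bal n, A₁ i x = 0) → Sma k ε s₁ s₂ A₁ A₂ →
  DatG (Om ρ) s₁ A₁ s₂ A₂ → ∃ (Φ Ψ : V n → V n) (U : MC n N), ContDiff ℝ ∞ Φ ∧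
    ContDiff ℝ ∞ Ψ ∧ (∀ x, Ψ (Φ x) = x) ∧ (∀ y, Φ (Ψ y) = y) ∧ (∀ x, ρ x = 0 → Φ x = x) ∧
    (∀ x, 0 < ρ (Φ x) ↔ 0 < ρ x) ∧ (∀ x, 0 < (Jm Φ x).det) ∧
    (∀ x, 0 ≤ ρ x → (Jm Φ x).det⁻¹ • (Jm Φ x * s₂ x * (Jm Φ x)ᵀ) = s₁ (Φ x)) ∧ SmC U ∧
    (∀ x, (U x)ᴴ * U x = 1) ∧ (∀ x, ρ x = 0 → U x = 1) ∧
    ∀ i x, 0 < ρ x → A₂ i x = (U x)ᴴ * pbF Φ A₁ i x * U x + (U x)ᴴ * pdm i U x

/-! ## Metrics, all smooth bounded domains -/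

/-- Equal data of the pairs on `{ρ > 0}` imply that the pairs are isomorphic. -/
def RigJ (ρ : V n → ℝ) (g₁ : MF n) (A₁ : Cn n N) (g₂ : MF n) (A₂ : Cn n N) : Prop :=
  SDU (Om ρ) g₁ A₁ g₂ A₂ → ∃ Φ Ψ U, IsoOn ρ g₁ g₂ Φ Ψ ∧ Gau (Om ρ) U (pbF Φ A₁) A₂

/-- Equal data on a patch `∂Ω ∩ G`, the pairs equal near the rest of the boundary. -/
def RigQ (ρ : V n → ℝ) (g₁ : MF n) (A₁ : Cn n N) (g₂ : MF n) (A₂ : Cn n N) : Prop :=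
  ∀ G : Set (V n), IsOpen G → P.Acc ρ G g₁ A₁ g₂ A₂ → P.SDG G (Om ρ) g₁ A₁ g₂ A₂ →
    ∃ Φ Ψ U, IsoOn ρ g₁ g₂ Φ Ψ ∧ Gau (Om ρ) U (pbF Φ A₁) A₂

/-- The entries of a connection are at most `ε` on `D`. -/
def C0 (D : Set (V n)) (ε : ℝ) (A : Cn n N) : Prop := ∀ x ∈ D, ∀ i α β, ‖A i x α β‖ ≤ ε

/-- Smooth unitary connections; the derivatives of order `l ≤ k` of the entries are at most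
`b l`. -/
def ConB (k : ℕ) (b : ℕ → ℝ) (A : Cn n N) : Prop := SmU A ∧ ∀ i α β, ∀ l ≤ k, ∀ x,
  ‖iteratedFDeriv ℝ l (fun x => A i x α β) x‖ ≤ b l

/-- (SC) two pairs near `(e, 0)` on any smooth bounded domain; from DAT, FIN by scaling, cut-off,
tensors to metrics (models: `H798/KTop`, `R2/H335/BSc`). -/
def RowSC : Prop := ∀ n N : ℕ, 3 ≤ n → 1 ≤ N → ∀ ρ : V n → ℝ, SDom ρ → ∃ (k : ℕ) (ε : ℝ), 0 < ε ∧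
  ∀ g₁ g₂ : MF n, SmM g₁ → SmM g₂ → (∀ x, (g₁ x).PosDef) → (∀ x, (g₂ x).PosDef) →
  (∀ i j, Cl k ε (fun x => g₁ x i j - dl i j)) → (∀ i j, Cl k ε (fun x => g₂ x i j - dl i j)) →
  ∀ A₁ A₂ : Cn n N, SmU A₁ → SmU A₂ → (∀ i, ClC k ε (A₁ i)) → (∀ i, ClC k ε (A₂ i)) →
  RigJ ρ g₁ A₁ g₂ A₂

/-- (LC) near one constant metric; from SC by a linear change of coordinates (model: B_LC). -/
def RowLC : Prop := ∀ n N : ℕ, 3 ≤ n → 1 ≤ N → ∀ ρ : V n → ℝ, SDom ρ →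
  ∀ G : Matrix (Fin n) (Fin n) ℝ, G.PosDef → ∃ (k : ℕ) (ε : ℝ), 0 < ε ∧ ∀ g₁ g₂ : MF n,
  SmM g₁ → SmM g₂ → (∀ x, (g₁ x).PosDef) → (∀ x, (g₂ x).PosDef) → NrC k ε G g₁ → NrC k ε G g₂ →
  ∀ A₁ A₂ : Cn n N, SmU A₁ → SmU A₂ → (∀ i, ClC k ε (A₁ i)) → (∀ i, ClC k ε (A₂ i)) →
  RigJ ρ g₁ A₁ g₂ A₂

/-- (UN) uniformity in the constant metric; from LC by compactness (model: B_UN). -/
def RowUN : Prop := ∀ n N : ℕ, 3 ≤ n → 1 ≤ N → ∀ ρ : V n → ℝ, SDom ρ → ∀ B : ℝ, 0 < B →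
  ∃ (k : ℕ) (ε : ℝ), 0 < ε ∧ ∀ G : Matrix (Fin n) (Fin n) ℝ, CoG B G → ∀ g₁ g₂ : MF n,
  SmM g₁ → SmM g₂ → (∀ x, (g₁ x).PosDef) → (∀ x, (g₂ x).PosDef) → NrC k ε G g₁ → NrC k ε G g₂ →
  ∀ A₁ A₂ : Cn n N, SmU A₁ → SmU A₂ → (∀ i, ClC k ε (A₁ i)) → (∀ i, ClC k ε (A₂ i)) →
  RigJ ρ g₁ A₁ g₂ A₂

/-- (LIN) the data determine the constant metric approximately (model: B_LIN; the energy of `u_f`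
is the minimum of the energies of the extensions of `f`, test with `f = ℓ · e_l`, `ℓ` linear). -/
def RowLIN : Prop := ∀ n N : ℕ, 3 ≤ n → 1 ≤ N → ∀ Ω : Set (V n), IsOpen Ω →
  Bornology.IsBounded Ω → Ω.Nonempty → ∀ B η : ℝ, 0 < B → 0 < η → ∃ ε > 0,
  ∀ G₁ G₂ : Matrix (Fin n) (Fin n) ℝ, CoG B G₁ → CoG B G₂ → ∀ g₁ g₂ : MF n, SmM g₁ → SmM g₂ →
  (∀ x, (g₁ x).PosDef) → (∀ x, (g₂ x).PosDef) → (∀ x ∈ Ω, ∀ i j, |g₁ x i j - G₁ i j| ≤ ε) →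
  (∀ x ∈ Ω, ∀ i j, |g₂ x i j - G₂ i j| ≤ ε) → ∀ A₁ A₂ : Cn n N, SmU A₁ → SmU A₂ →
  C0 Ω ε A₁ → C0 Ω ε A₂ → SDU Ω g₁ A₁ g₂ A₂ → ∀ i j, |G₁ i j - G₂ i j| ≤ η

/-- (CC) two pairs, each metric near a constant one; from UN, LIN (model: B_CC). -/
def RowCC : Prop := ∀ n N : ℕ, 3 ≤ n → 1 ≤ N → ∀ ρ : V n → ℝ, SDom ρ → ∀ B : ℝ, 0 < B →
  ∃ (k : ℕ) (ε : ℝ), 0 < ε ∧ ∀ G₁ G₂ : Matrix (Fin n) (Fin n) ℝ, CoG B G₁ → CoG B G₂ →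
  ∀ g₁ g₂ : MF n, SmM g₁ → SmM g₂ → (∀ x, (g₁ x).PosDef) → (∀ x, (g₂ x).PosDef) →
  NrC k ε G₁ g₁ → NrC k ε G₂ g₂ → ∀ A₁ A₂ : Cn n N, SmU A₁ → SmU A₂ → (∀ i, ClC k ε (A₁ i)) →
  (∀ i, ClC k ε (A₂ i)) → RigJ ρ g₁ A₁ g₂ A₂

/-- (OS) metrics with small oscillation, connections `C^0`-small; from CC by interpolation (model:
B_OS). -/
def RowOS : Prop := ∀ n N : ℕ, 3 ≤ n → 1 ≤ N → ∀ ρ : V n → ℝ, SDom ρ → ∀ b : ℕ → ℝ,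
  ∃ (k : ℕ) (ε : ℝ), 0 < ε ∧ ∀ g₁ g₂ : MF n, MetB k b g₁ → MetB k b g₂ → Osc ε g₁ → Osc ε g₂ →
  ∀ A₁ A₂ : Cn n N, ConB k b A₁ → ConB k b A₂ → C0 univ ε A₁ → C0 univ ε A₂ → RigJ ρ g₁ A₁ g₂ A₂

/-- (SB) arbitrary pairs on a small domain; from OS by scaling and cut-off (model: B_SB). -/
def RowSB : Prop := ∀ n N : ℕ, 3 ≤ n → 1 ≤ N → ∀ ρ : V n → ℝ, SDom ρ → ∀ b : ℕ → ℝ,
  ∃ (k : ℕ) (r₀ : ℝ), 0 < r₀ ∧ ∀ g₁ g₂ : MF n, MetB k b g₁ → MetB k b g₂ → ∀ A₁ A₂ : Cn n N,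
  ConB k b A₁ → ConB k b A₂ → ∀ (r : ℝ) (x₀ : V n), 0 < r → r ≤ r₀ →
  RigJ (scR ρ r x₀) g₁ A₁ g₂ A₂

/-- (RT) data on a patch (model: `R2/H593/BTop`, `sdu_all`). -/
def RowRT : Prop := ∀ n N : ℕ, 3 ≤ n → 1 ≤ N → ∀ ρ : V n → ℝ, SDom ρ → ∀ g₁ g₂ : MF n, SmM g₁ →
  SmM g₂ → (∀ x, (g₁ x).PosDef) → (∀ x, (g₂ x).PosDef) → ∀ A₁ A₂ : Cn n N, SmU A₁ → SmU A₂ →
  RigJ ρ g₁ A₁ g₂ A₂ → RigQ ρ g₁ A₁ g₂ A₂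

/-- **Two arbitrary pairs on a smooth domain**: with small oscillation, or on a small domain. -/
def FinB : Prop := ∀ n N : ℕ, 3 ≤ n → 1 ≤ N → ∀ ρ : V n → ℝ, SDom ρ → ∀ b : ℕ → ℝ,
  ∃ (k : ℕ) (r₀ ε : ℝ), 0 < r₀ ∧ 0 < ε ∧ ∀ g₁ g₂ : MF n, MetB k b g₁ → MetB k b g₂ →
  ∀ A₁ A₂ : Cn n N, ConB k b A₁ → ConB k b A₂ →
  (Osc ε g₁ → Osc ε g₂ → C0 univ ε A₁ → C0 univ ε A₂ → RigQ ρ g₁ A₁ g₂ A₂) ∧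
    ∀ (r : ℝ) (x₀ : V n), 0 < r → r ≤ r₀ → RigQ (scR ρ r x₀) g₁ A₁ g₂ A₂

end Vale.Agent.P088.PJ.Bd
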